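import Vale.Agent.Lib.P154.PChain.BN.C1

set_option linter.all false

namespace Vale.Agent.Lib.P154.PChain.BN.S1

open Vale.Agent.Lib.P154.Chain

set_option maxRecDepth 10000000 in
def run_ok0 : runP g l0 (vPacked vl) wp Tp Tx Te Tz 1 cp0 = rc0 := by
  decide +kernel

end Vale.Agent.Lib.P154.PChain.BN.S1
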